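import Vale.Agent.P038.Main

namespace Vale.Agent.Results.P038.Seymour

theorem result : ∀ (V : Type) [Finite V] [Nonempty V] (arc : V → V → Prop),
    (∀ v, ¬ arc v v) → (∀ u v, arc u v → ¬ arc v u) →
    ∃ v, {u | arc v u}.ncard ≤
      {w | w ≠ v ∧ ¬ arc v w ∧ ∃ u, arc v u ∧ arc u w}.ncard :=
  fun V _ _ arc _ h => Vale.Agent.P038.seymour V arc h

end Vale.Agent.Results.P038.Seymour
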